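import Vale.Agent.P103.Zero
import Vale.Agent.P103.Hom

open scoped Manifold ContDiff
open Vale.Agent.P103

/-- A `C¹` self-map of a compact boundaryless smooth manifold with zero topological entropy
whose action on the second real singular homology group has the eigenvalue `2`. -/
theorem Vale.Agent.Results.P103.Shub.result :
    ∃ (E : Type) (_ : NormedAddCommGroup E) (_ : NormedSpace ℝ E) (_ : FiniteDimensional ℝ E)
      (H : Type) (_ : TopologicalSpace H) (I : ModelWithCorners ℝ E H) (_ : I.Boundaryless)
      (M : Type) (_ : MetricSpace M) (_ : ChartedSpace H M) (_ : IsManifold I ∞ M)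
      (_ : CompactSpace M) (_ : Nonempty M) (f : C(M, M)),
      ContMDiff I I 1 f ∧
      Dynamics.coverEntropy f Set.univ = 0 ∧
      (∀ ε : ℝ, 0 < ε → ∃ C K : ℕ, ∀ (n : ℕ) (S : Finset M),
        (∀ x ∈ S, ∀ y ∈ S, x ≠ y → ∃ j < n, ε < dist (f^[j] x) (f^[j] y)) →
          S.card ≤ C * (n + 1) ^ K) ∧
      (homologyMap 2 f).HasEigenvalue 2 :=
  ⟨_, inferInstance, inferInstance, inferInstance, _, inferInstance, IM, inferInstance,
    MM, inferInstance, inferInstance, inferInstance, inferInstance, ⟨inc NP⟩, ffc,
    contMDiff_ff, tame_ff.entropy, fun _ hε => tame_ff.separated hε, eigen_ff⟩
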