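import Vale.Agent.P103.Euclid

open scoped Manifold ContDiff
open Vale.Agent.P103

/-- A `C¹` self-map of a closed smooth manifold with `h_top(f) = 0` and `ρ(f_*) ≥ 2`. -/
theorem Vale.Agent.Results.P103.ShubLiteral.result :
    ∃ (d : ℕ) (M : Type) (_ : MetricSpace M) (_ : ChartedSpace (EuclideanSpace ℝ (Fin d)) M)
      (_ : IsManifold (𝓡 d) ∞ M) (_ : CompactSpace M) (_ : Nonempty M) (f : C(M, M)),
      ContMDiff (𝓡 d) (𝓡 d) 1 f ∧ hTop f = 0 ∧ 2 ≤ specRad d f ∧
        hTop f < ENNReal.log (specRad d f) := by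
  have hn : Nonempty MM := ⟨inc NP⟩
  have h0 : hTop ffc = 0 :=
    le_antisymm (hTop_le_of_poly fun _ hε => tame_ff.separated hε) (hTop_nonneg _)
  let L := ContinuousLinearEquiv.ofFinrankEq finrank_model
  refine ⟨7, MM, inferInstance, transCS IM MM L, transCS_manifold IM MM L, inferInstance, hn, ffc,
    transCS_contMDiff IM MM L contMDiff_ff, h0, two_le_specRad, ?_⟩
  rw [h0, ENNReal.zero_lt_log_iff]
  exact lt_of_lt_of_le (by norm_num) two_le_specRad
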